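import Vale.Agent.P207.N4.Dim
import Vale.Agent.P207.N5.H547.AffLemA
import Vale.Agent.P207.N4.H709.DarA

/-!
# P207, line N5, row AFFLEM, part A2: the Busemann functions in the affine coordinate

Over `P : Pic L V`: `P.bq`, `P.dl`, `P.gr` are families with jointly continuous derivatives over
`X × B`, on `P.dTB = {((x, ξ), q) | (x, q) ∈ P.Af.dT}`, invariant under the group, equivariant under
the rotations, with uniform bounds; gradients and Hessians in the disc coordinate and in the affine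
coordinate; the gradient of `b_ξ + b_η` vanishes on the geodesic.
-/

set_option linter.unusedSectionVars false

open Set Filter Topology Metric
open scoped ContDiff

noncomputable section

namespace Vale.Agent.P207.N4.V

open Vale.Agent.P207.N3

variable [Dim]

namespace H547

open Vale.Agent.P207.N4.H709

/-! ### general facts -/

/-- the adjoint as a continuous linear map -/
def adjL : (E2 →L[ℝ] E2) →L[ℝ] (E2 →L[ℝ] E2) :=
  LinearMap.toContinuousLinearMap
    { toFun := fun A => ContinuousLinearMap.adjoint A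
      map_add' := fun A C => map_add _ A C
      map_smul' := fun c A => by
        rw [map_smulₛₗ]
        simp }

theorem adjL_apply (A : E2 →L[ℝ] E2) : adjL A = ContinuousLinearMap.adjoint A := rfl

/-- the gradient of a composition -/
theorem gradient_comp {f : E2 → ℝ} {g : E2 → E2} {q : E2} (hf : DifferentiableAt ℝ f (g q))
    (hg : DifferentiableAt ℝ g q) :
    gradient (fun t => f (g t)) q = ContinuousLinearMap.adjoint (fderiv ℝ g q) (gradient f (g q)) := by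
  have h1 : HasFDerivAt (fun t => f (g t)) (fderiv ℝ f (g q) ∘L fderiv ℝ g q) q :=
    hf.hasFDerivAt.comp q hg.hasFDerivAt
  refine ext_inner_right ℝ fun v => ?_
  rw [ContinuousLinearMap.adjoint_inner_left, gradient_eq_rz, gradient_eq_rz, inner_rz, inner_rz,
    h1.fderiv]
  rfl

/-- the gradient of a sum -/
theorem hess_add {f g : E2 → ℝ} {q : E2} (hf : ContDiffAt ℝ 2 f q) (hg : ContDiffAt ℝ 2 g q) :
    hess (fun t => f t + g t) q = hess f q + hess g q := by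
  have df : ∀ᶠ t in 𝓝 q, DifferentiableAt ℝ f t := (hf.eventually (by norm_num)).mono fun t ht =>
    ht.differentiableAt (by norm_num)
  have dg : ∀ᶠ t in 𝓝 q, DifferentiableAt ℝ g t := (hg.eventually (by norm_num)).mono fun t ht =>
    ht.differentiableAt (by norm_num)
  have h1 : gradient (fun t => f t + g t) =ᶠ[𝓝 q] fun t => gradient f t + gradient g t := by
    filter_upwards [df, dg] with t h2 h3 using gradient_add' h2 h3
  have d : ∀ {f : E2 → ℝ}, ContDiffAt ℝ 2 f q → DifferentiableAt ℝ (gradient f) q := fun hf =>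
    (rz.differentiableAt).comp q
      ((hf.fderiv_right (m := 1) (by norm_num)).differentiableAt (by norm_num))
  unfold hess
  rw [h1.fderiv_eq, fderiv_fun_add (d hf) (d hg)]

/-- **the Hessian of a composition, at a critical point** -/
theorem hess_comp {f : E2 → ℝ} {g : E2 → E2} {q : E2} (hf : ContDiffAt ℝ 2 f (g q))
    (hg : ContDiffAt ℝ 2 g q) (h0 : gradient f (g q) = 0) :
    hess (fun t => f (g t)) q
      = ContinuousLinearMap.adjoint (fderiv ℝ g q) ∘L hess f (g q) ∘L fderiv ℝ g q := by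
  have df : ∀ᶠ t in 𝓝 q, DifferentiableAt ℝ f (g t) := by
    have h1 : ∀ᶠ u in 𝓝 (g q), DifferentiableAt ℝ f u :=
      (hf.eventually (by norm_num)).mono fun t ht => ht.differentiableAt (by norm_num)
    exact hg.continuousAt.eventually h1
  have dg : ∀ᶠ t in 𝓝 q, DifferentiableAt ℝ g t := (hg.eventually (by norm_num)).mono fun t ht =>
    ht.differentiableAt (by norm_num)
  have h1 : gradient (fun t => f (g t)) =ᶠ[𝓝 q]
      fun t => adjL (fderiv ℝ g t) (gradient f (g t)) := by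
    filter_upwards [df, dg] with t h2 h3 using gradient_comp h2 h3
  have d1 : HasFDerivAt (fun t => adjL (fderiv ℝ g t)) (adjL ∘L fderiv ℝ (fderiv ℝ g) q) q :=
    adjL.hasFDerivAt.comp q ((hg.fderiv_right (m := 1) (by norm_num)).differentiableAt
      (by norm_num)).hasFDerivAt
  have d2 : HasFDerivAt (fun t => gradient f (g t)) (hess f (g q) ∘L fderiv ℝ g q) q := by
    have h2 : DifferentiableAt ℝ (gradient f) (g q) := (rz.differentiableAt).comp (g q)
      ((hf.fderiv_right (m := 1) (by norm_num)).differentiableAt (by norm_num))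
    exact h2.hasFDerivAt.comp q (hg.differentiableAt (by norm_num)).hasFDerivAt
  have d3 := d1.clm_apply d2
  rw [h0] at d3
  unfold hess
  rw [h1.fderiv_eq]
  change fderiv ℝ (fun t => (adjL (fderiv ℝ g t)) (gradient f (g t))) q = _
  rw [d3.fderiv]
  ext1 v
  change adjL (fderiv ℝ g q) (hess f (g q) (fderiv ℝ g q v))
    + (adjL (fderiv ℝ (fderiv ℝ g) q v)) 0 = _
  rw [map_zero, add_zero]
  rfl

end H547

open Vale.Agent.P207.N4.V.H547 Vale.Agent.P207.N4.H709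

variable {Γ X B : Type} [Group Γ] [MetricSpace X] [ProperSpace X] [MulAction Γ X]
  [IsIsometricSMul Γ X] [TopologicalSpace B] [CompactSpace B] [T2Space B] [MulAction Γ B]
  [ContinuousConstSMul Γ B]

namespace Pic

variable {L : Leaf Γ X B} [MeasurableSpace B] [BorelSpace B] {V : Type}
  [NormedAddCommGroup V] [NormedSpace ℝ V] [FiniteDimensional ℝ V] (P : Pic L V)

/-- the domain -/
def dTB : Set ((X × B) × E2) := {p | (p.1.1, p.2) ∈ P.Af.dT}

theorem isOpen_dTB : IsOpen P.dTB :=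
  P.Af.isOpen_dT.preimage (by fun_prop : Continuous fun p : (X × B) × E2 => (p.1.1, p.2))

theorem ball_dTB (x : X) (ξ : B) {q : E2} (hq : q ∈ ball (0 : E2) P.Af.rad) :
    ((x, ξ), q) ∈ P.dTB := P.Af.ball_dT x hq

theorem closedBall_dTB (x : X) (ξ : B) {q : E2} (hq : q ∈ closedBall (0 : E2) 2) :
    ((x, ξ), q) ∈ P.dTB := P.Af.closedBall_dT x hq

theorem mem3 {x : X} {q : E2} (h : (x, q) ∈ P.Af.dT) : P.dsc x q ∈ ball (0 : E2) 3 :=
  P.Af.dsc_mem h

theorem e_dsc {x : X} {q : E2} (h : (x, q) ∈ P.Af.dT) : L.e x (P.dsc x q) = P.Af.pt x q :=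
  P.Af.e_dsc h

theorem two_le_infty : (2 : WithTop ℕ∞) ≤ ∞ :=
  (WithTop.coe_le_coe.2 le_top : ((2 : ℕ∞) : WithTop ℕ∞) ≤ ((⊤ : ℕ∞) : WithTop ℕ∞))

theorem dscB_jc : JC (fun (p : X × B) q => P.dsc p.1 q) P.dTB :=
  P.Af.dsc_jc.pullback continuous_fst

theorem bq_jc : JC (fun (p : X × B) q => P.bq p.1 p.2 q) P.dTB :=
  P.Bu.be_jc.comp' P.dscB_jc fun _ hp => ⟨mem_univ _, P.Af.dsc_mem hp⟩

theorem bq_em_jc : JC (fun (p : X × B) q => P.bq p.1 (L.em p.1) q) P.dTB :=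
  (be_em_jc P.Bu).comp' P.dscB_jc fun _ hp => ⟨mem_univ _, P.Af.dsc_mem hp⟩

theorem dl_jc : JC (fun (p : X × B) q => P.dl p.1 p.2 q) P.dTB := P.bq_jc.sub P.bq_em_jc

theorem gr_jc : JC (fun (p : X × B) q => P.gr p.1 p.2 q) P.dTB := gradient_jc P.dl_jc

theorem bq_smul (g : Γ) {x : X} {q : E2} (h : (x, q) ∈ P.Af.dT) (ξ : B) :
    P.bq (g • x) (g • ξ) q = P.bq x ξ q := by
  rw [bq, bq, dsc, dsc, P.Af.dsc_smul g h, P.Bu.be_smul g x ξ _ (P.Af.dsc_mem h)]

theorem bq_rot (a : O2) {x : X} {q : E2} (h : (x, a q) ∈ P.Af.dT) (ξ : B) :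
    P.bq (L.rot a x) ξ q = P.bq x ξ (a q) := by
  have h1 := P.Af.dsc_mem h
  have h2 : a.symm (P.Af.dsc x (a q)) ∈ ball (0 : E2) 3 := (Aff.rot_ball a.symm).2 h1
  rw [bq, bq, dsc, dsc, P.Af.dsc_rot a h, P.Bu.be_rot a x ξ _ h2,
    LinearIsometryEquiv.apply_symm_apply]

theorem bq_zero (x : X) (ξ : B) : P.bq x ξ 0 = 0 := by
  rw [bq, dsc, P.Af.dsc_zero, P.Bu.be_zero]

theorem dl_em (x : X) (q : E2) : P.dl x (L.em x) q = 0 := sub_self _

theorem dl_zero (x : X) (ξ : B) : P.dl x ξ 0 = 0 := by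
  rw [dl, P.bq_zero, P.bq_zero, sub_self]

theorem dl_smul (g : Γ) {x : X} {q : E2} (h : (x, q) ∈ P.Af.dT) (ξ : B) :
    P.dl (g • x) (g • ξ) q = P.dl x ξ q := by
  rw [dl, dl, P.bq_smul g h, L.em_smul, P.bq_smul g h]

theorem dl_rot (a : O2) {x : X} {q : E2} (h : (x, a q) ∈ P.Af.dT) (ξ : B) :
    P.dl (L.rot a x) ξ q = P.dl x ξ (a q) := by
  rw [dl, dl, P.bq_rot a h, L.em_rot, P.bq_rot a h]

theorem dl_eq (x : X) (ξ : B) : P.dl x ξ = fun q => H709.dl P.Bu x ξ (P.dsc x q) := rfl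

theorem bq_bound {r : ℝ} (hr : r < P.Af.rad) (k : ℕ) :
    ∃ M, ∀ x ξ, ∀ q ∈ closedBall (0 : E2) r, ‖iteratedFDeriv ℝ k (P.bq x ξ) q‖ ≤ M :=
  Leaf.bndB L P.bq_jc (fun g _ ξ _ h => P.bq_smul g h ξ) (isCompact_closedBall _ _)
    (fun x ξ _ hq => P.ball_dTB x ξ (closedBall_subset_ball hr hq)) k

theorem dl_bound {r : ℝ} (hr : r < P.Af.rad) (k : ℕ) :
    ∃ M, ∀ x ξ, ∀ q ∈ closedBall (0 : E2) r, ‖iteratedFDeriv ℝ k (P.dl x ξ) q‖ ≤ M :=
  Leaf.bndB L P.dl_jc (fun g _ ξ _ h => P.dl_smul g h ξ) (isCompact_closedBall _ _)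
    (fun x ξ _ hq => P.ball_dTB x ξ (closedBall_subset_ball hr hq)) k

theorem gr_smul (g : Γ) {x : X} {q : E2} (h : (x, q) ∈ P.Af.dT) (ξ : B) :
    P.gr (g • x) (g • ξ) q = P.gr x ξ q := by
  refine gradient_congr ?_
  filter_upwards [(isOpen_slice P.Af.isOpen_dT x).mem_nhds h] with t ht using P.dl_smul g ht ξ

theorem gr_bound {r : ℝ} (hr : r < P.Af.rad) (k : ℕ) :
    ∃ M, ∀ x ξ, ∀ q ∈ closedBall (0 : E2) r, ‖iteratedFDeriv ℝ k (P.gr x ξ) q‖ ≤ M :=
  Leaf.bndB L P.gr_jc (fun g _ ξ _ h => P.gr_smul g h ξ) (isCompact_closedBall _ _)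
    (fun x ξ _ hq => P.ball_dTB x ξ (closedBall_subset_ball hr hq)) k

theorem gr_rot (a : O2) {x : X} {q : E2} (h : (x, a q) ∈ P.Af.dT) (ξ : B) :
    P.gr (L.rot a x) ξ q = a.symm (P.gr x ξ (a q)) := by
  have h1 : P.dl (L.rot a x) ξ =ᶠ[𝓝 q] fun t => P.dl x ξ (a t) := by
    have h2 : ∀ᶠ t in 𝓝 (a q), (x, t) ∈ P.Af.dT := (isOpen_slice P.Af.isOpen_dT x).mem_nhds h
    filter_upwards [a.continuous.continuousAt.eventually h2] with t ht using P.dl_rot a ht ξ
  have h3 : DifferentiableAt ℝ (P.dl x ξ) (a q) := P.dl_jc.differentiableAt (p := ((x, ξ), a q)) h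
  have h4 : HasFDerivAt (fun t => a t) (a.toContinuousLinearEquiv : E2 →L[ℝ] E2) q :=
    (a.toContinuousLinearEquiv : E2 →L[ℝ] E2).hasFDerivAt
  rw [gr, gradient_congr h1, gradient_comp (g := fun t => a t) h3 h4.differentiableAt, h4.fderiv]
  refine ext_inner_right ℝ fun v => ?_
  rw [ContinuousLinearMap.adjoint_inner_left, ← a.inner_map_map (a.symm _) v,
    LinearIsometryEquiv.apply_symm_apply]
  rfl

/-! ### gradients in the affine coordinate -/

theorem be_diff (x : X) (ξ : B) {u : E2} (hu : u ∈ ball (0 : E2) 3) :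
    DifferentiableAt ℝ (P.Bu.be x ξ) u := H709.be_diff P.Bu x ξ hu

theorem be_smooth (x : X) (ξ : B) {u : E2} (hu : u ∈ ball (0 : E2) 3) :
    ContDiffAt ℝ ∞ (P.Bu.be x ξ) u :=
  P.Bu.be_jc.contDiffAt (p := ((x, ξ), u)) ⟨mem_univ _, hu⟩

theorem bq_smooth (x : X) (ξ : B) {q : E2} (h : (x, q) ∈ P.Af.dT) :
    ContDiffAt ℝ ∞ (P.bq x ξ) q := P.bq_jc.contDiffAt (p := ((x, ξ), q)) h

theorem dl_smooth (x : X) (ξ : B) {q : E2} (h : (x, q) ∈ P.Af.dT) :
    ContDiffAt ℝ ∞ (P.dl x ξ) q := P.dl_jc.contDiffAt (p := ((x, ξ), q)) h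

theorem bq_diff (x : X) (ξ : B) {q : E2} (h : (x, q) ∈ P.Af.dT) :
    DifferentiableAt ℝ (P.bq x ξ) q := P.bq_jc.differentiableAt (p := ((x, ξ), q)) h

theorem gradient_bq (x : X) (ξ : B) {q : E2} (h : (x, q) ∈ P.Af.dT) :
    gradient (P.bq x ξ) q = ContinuousLinearMap.adjoint (fderiv ℝ (P.dsc x) q)
      (gradient (P.Bu.be x ξ) (P.dsc x q)) :=
  gradient_comp (g := P.dsc x) (P.be_diff x ξ (P.mem3 h)) (P.Af.dsc_diff h)

theorem gr_eq_sub (x : X) (ξ : B) {q : E2} (h : (x, q) ∈ P.Af.dT) :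
    P.gr x ξ q = gradient (P.bq x ξ) q - gradient (P.bq x (L.em x)) q :=
  gradient_sub' (P.bq_diff x ξ h) (P.bq_diff x _ h)

theorem gr_eq (x : X) (ξ : B) {q : E2} (h : (x, q) ∈ P.Af.dT) :
    P.gr x ξ q = ContinuousLinearMap.adjoint (fderiv ℝ (P.dsc x) q)
      (gradient (H709.dl P.Bu x ξ) (P.dsc x q)) := by
  rw [P.gr_eq_sub x ξ h, P.gradient_bq x ξ h, P.gradient_bq x _ h, ← map_sub,
    H709.gradient_dl P.Bu x ξ (P.mem3 h)]

/-- the value at the centre -/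
theorem gr_zero (x : X) (ξ : B) :
    P.gr x ξ 0 = P.Af.c⁻¹ • gradient (P.Bu.be x ξ) 0 := by
  rw [P.gr_eq x ξ (P.Af.zero_dT x)]
  change ContinuousLinearMap.adjoint (fderiv ℝ (P.Af.dsc x) 0)
    (gradient (H709.dl P.Bu x ξ) (P.Af.dsc x 0)) = _
  rw [P.Af.dsc_zero, P.Af.der_dsc_zero, H709.gradient_dl_zero]
  refine ext_inner_right ℝ fun v => ?_
  rw [ContinuousLinearMap.adjoint_inner_left]
  change inner ℝ (gradient (P.Bu.be x ξ) 0) (P.Af.c⁻¹ • v) = _
  rw [inner_smul_right, inner_smul_left]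
  rfl

theorem gr_em (x : X) {q : E2} (h : (x, q) ∈ P.Af.dT) : P.gr x (L.em x) q = 0 := by
  rw [P.gr_eq_sub x _ h, sub_self]

/-- the Hessians of `bq` add up to the one of `dl` -/
theorem fderiv_gr (x : X) (ξ : B) (q : E2) : fderiv ℝ (P.gr x ξ) q = hess (P.dl x ξ) q := rfl

/-! ### the geodesic through the point `q` of the disc -/

theorem Th_em (x : X) {q : E2} (h : (x, q) ∈ P.Af.dT) : P.Th x (L.em x) q = P.Af.pt x q := by
  rw [Th, P.Bu.en_em x _ (P.mem3 h), P.e_dsc h]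

theorem gradient_Th (x : X) (ξ : B) {q : E2} (h : (x, q) ∈ P.Af.dT) :
    gradient (P.bq x (P.Th x ξ q)) q = -gradient (P.bq x ξ) q := by
  rw [P.gradient_bq x _ h, P.gradient_bq x _ h, Th, H709.gradient_en P.Bu x ξ (P.mem3 h),
    map_neg]

theorem gradient_pt (x : X) {q : E2} (h : (x, q) ∈ P.Af.dT) :
    gradient (P.bq x (P.Af.pt x q)) q = -gradient (P.bq x (L.em x)) q := by
  rw [← P.Th_em x h, P.gradient_Th x _ h]

/-- the gradient of `b_{em x} + b_η` at the point `q`, `η` = the end of the geodesic from `ξ` -/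
theorem gradient_Sq (x : X) (ξ η : B) {q : E2} (h : (x, q) ∈ P.Af.dT) :
    gradient (P.Sq x ξ η) q = gradient (P.bq x ξ) q + gradient (P.bq x η) q :=
  gradient_add' (P.bq_diff x ξ h) (P.bq_diff x η h)

theorem gradient_Sq_Th (x : X) (ξ : B) {q : E2} (h : (x, q) ∈ P.Af.dT) :
    gradient (P.Sq x ξ (P.Th x ξ q)) q = 0 := by
  rw [P.gradient_Sq x _ _ h, P.gradient_Th x ξ h, add_neg_cancel]

theorem gradient_Sq_pt (x : X) {q : E2} (h : (x, q) ∈ P.Af.dT) :
    gradient (P.Sq x (L.em x) (P.Af.pt x q)) q = 0 := by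
  rw [← P.Th_em x h]
  exact P.gradient_Sq_Th x _ h

theorem hess_Sq (x : X) (ξ η : B) {q : E2} (h : (x, q) ∈ P.Af.dT) :
    hess (P.Sq x ξ η) q = hess (P.bq x ξ) q + hess (P.bq x η) q :=
  hess_add ((P.bq_smooth x ξ h).of_le two_le_infty)
    ((P.bq_smooth x η h).of_le two_le_infty)

/-- **the Hessian of `b_ξ + b_η` at a point of the geodesic, in the two coordinates** -/
theorem hess_Sq_Th (x : X) (ξ : B) {q : E2} (h : (x, q) ∈ P.Af.dT) :
    hess (P.Sq x ξ (P.Th x ξ q)) q = ContinuousLinearMap.adjoint (fderiv ℝ (P.dsc x) q) ∘L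
      (hess (P.Bu.be x ξ) (P.dsc x q) + hess (P.Bu.be x (P.Th x ξ q)) (P.dsc x q)) ∘L
      fderiv ℝ (P.dsc x) q := by
  have hm := P.mem3 h
  set η := P.Th x ξ q with hη
  have h1 : gradient (fun t => P.Bu.be x ξ t + P.Bu.be x η t) (P.dsc x q) = 0 := by
    rw [gradient_add' (P.be_diff x ξ hm) (P.be_diff x η hm), hη, Th]
    rw [H709.gradient_en P.Bu x ξ hm, add_neg_cancel]
  have s1 : ∀ ζ, ContDiffAt ℝ 2 (P.Bu.be x ζ) (P.dsc x q) := fun ζ =>
    (P.be_smooth x ζ hm).of_le two_le_infty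
  have h2 := hess_comp (f := fun t => P.Bu.be x ξ t + P.Bu.be x η t) (g := P.dsc x) (q := q)
    ((s1 ξ).add (s1 η)) ((P.Af.dsc_smooth x h).of_le two_le_infty) h1
  rw [hess_add (s1 ξ) (s1 η)] at h2
  exact h2

end Pic

end Vale.Agent.P207.N4.V
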